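import Vale.Agent.P088.R2.H871.Q.Kb
import Vale.Agent.P088.R2.H455.S4.SpecN

/-!
# P088, stage 4, row QMWN: bound of the boundary form
-/

open MeasureTheory Set
open scoped ContDiff Matrix NNReal

noncomputable section

namespace Vale.Agent.P088.S4.H871

open Vale.Agent.P088.LR Vale.Agent.P088.LR.U Vale.Agent.P088.LR.H158
open Vale.Agent.P088.HY (VV)
open Vale.Agent.P088.PJ
open Vale.Agent.P088.PJ.H696 (Bd BM CB bd_re bm_cl bd_cl bm_sm bm_pdm pdm_subc qL qL_apply qL_norm)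

variable {n N k l m : ℕ} {δ C : ℝ}

/-- Size of the differences of first order. -/
def U1' (s₁ s₂ : MF n) (P₁ P₂ : MC n N) (D : Fin n → MC n N) (x : V n) : ℝ :=
  (∑ i, ∑ j, |s₂ x i j - s₁ x i j|) + (∑ a, ∑ b, ‖P₂ x a b - P₁ x a b‖) +
    ∑ c, ∑ a, ∑ b, (‖D c x a b‖ + ∑ i, ‖pdm i (D c) x a b‖)

theorem U1_nonneg (s₁ s₂ : MF n) (P₁ P₂ : MC n N) (D : Fin n → MC n N) (x : V n) :
    0 ≤ U1' s₁ s₂ P₁ P₂ D x := by
  unfold U1'
  positivity

section le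

variable (s₁ s₂ : MF n) (P₁ P₂ : MC n N) (D : Fin n → MC n N) (x : V n)

theorem u_a : 0 ≤ ∑ i, ∑ j, |s₂ x i j - s₁ x i j| := by positivity

theorem u_b : 0 ≤ ∑ a, ∑ b, ‖P₂ x a b - P₁ x a b‖ := by positivity

theorem u_c : 0 ≤ ∑ c, ∑ a, ∑ b, (‖D c x a b‖ + ∑ i, ‖pdm i (D c) x a b‖) := by positivity

theorem le2 {ι κ : Type*} [Fintype ι] [Fintype κ] {f : ι → κ → ℝ} (h : ∀ i j, 0 ≤ f i j) (i : ι)
    (j : κ) : f i j ≤ ∑ i, ∑ j, f i j :=
  (Finset.single_le_sum (f := fun j => f i j) (fun j _ => h i j) (Finset.mem_univ j)).trans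
    (Finset.single_le_sum (f := fun i => ∑ j, f i j) (fun i _ => Finset.sum_nonneg fun j _ => h i j)
      (Finset.mem_univ i))

theorem u_s (i j : Fin n) : |s₂ x i j - s₁ x i j| ≤ U1' s₁ s₂ P₁ P₂ D x := by
  have h1 := le2 (f := fun i j => |s₂ x i j - s₁ x i j|) (fun _ _ => abs_nonneg _) i j
  have h2 := u_b P₁ P₂ x
  have h3 := u_c D x
  unfold U1'
  linarith

theorem u_P (a b : Fin N) : ‖P₂ x a b - P₁ x a b‖ ≤ U1' s₁ s₂ P₁ P₂ D x := by
  have h1 := le2 (f := fun a b => ‖P₂ x a b - P₁ x a b‖) (fun _ _ => norm_nonneg _) a b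
  have h2 := u_a s₁ s₂ x
  have h3 := u_c D x
  unfold U1'
  linarith

theorem u_d (c : Fin n) (a b : Fin N) :
    ‖D c x a b‖ + ∑ i, ‖pdm i (D c) x a b‖ ≤ U1' s₁ s₂ P₁ P₂ D x := by
  have h0 : ∀ c a b, 0 ≤ ‖D c x a b‖ + ∑ i, ‖pdm i (D c) x a b‖ := fun _ _ _ => by positivity
  have h1 := le2 (f := fun a b => ‖D c x a b‖ + ∑ i, ‖pdm i (D c) x a b‖) (h0 c) a b
  have h4 := Finset.single_le_sum (f := fun c => ∑ a, ∑ b, (‖D c x a b‖ + ∑ i, ‖pdm i (D c) x a b‖))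
    (fun c _ => Finset.sum_nonneg fun a _ => Finset.sum_nonneg fun b _ => h0 c a b)
    (Finset.mem_univ c)
  have h2 := u_a s₁ s₂ x
  have h3 := u_b P₁ P₂ x
  unfold U1'
  linarith

theorem u_D (c : Fin n) (a b : Fin N) : ‖D c x a b‖ ≤ U1' s₁ s₂ P₁ P₂ D x := by
  have h1 := u_d s₁ s₂ P₁ P₂ D x c a b
  have h2 : 0 ≤ ∑ i, ‖pdm i (D c) x a b‖ := by positivity
  linarith

theorem u_dD (i c : Fin n) (a b : Fin N) : ‖pdm i (D c) x a b‖ ≤ U1' s₁ s₂ P₁ P₂ D x := by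
  have h1 := u_d s₁ s₂ P₁ P₂ D x c a b
  have h2 := Finset.single_le_sum (f := fun i => ‖pdm i (D c) x a b‖) (fun _ _ => norm_nonneg _)
    (Finset.mem_univ i)
  have h3 := norm_nonneg (D c x a b)
  linarith

end le

/-- the second point -/
def yk (p : Qk n N k δ) : V n := p.q.c.z.2

/-- the size of the differences -/
def Uk (p : Qk n N k δ) : ℝ≥0 :=
  ⟨U1' p.q.c.s₁ p.q.c.s₂ p.q.c.P₁ p.q.c.P₂ p.q.c.D p.q.c.z.2, U1_nonneg _ _ _ _ _ _⟩

theorem Uk_eq (p : Qk n N k δ) : (Uk p : ℝ) =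
    U1' p.q.c.s₁ p.q.c.s₂ p.q.c.P₁ p.q.c.P₂ p.q.c.D p.q.c.z.2 := rfl

/-- a smooth function with a bound of its value -/
theorem uo_val {ι E F : Type*} [NormedAddCommGroup E] [NormedSpace ℝ E] [NormedAddCommGroup F]
    [NormedSpace ℝ F] {r : ι → Set.Icc (0 : ℝ) 1} {z : ι → E} {W : ι → ℝ≥0} {f : ι → E → F}
    (h : ∀ i, ContDiff ℝ ∞ (f i)) (h' : ∀ i, ‖f i (z i)‖ ≤ W i) : UO r z W 0 0 f := by
  refine ⟨1, zero_le_one, fun i => ⟨h i, fun l hl => ?_⟩⟩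
  obtain rfl : l = 0 := by omega
  simp only [Nat.sub_zero, pow_zero, mul_one, one_mul]
  rw [norm_iteratedFDeriv_zero]
  exact h' i

theorem sm_pdm {P : MC n N} (h : SmC P) (i : Fin n) : SmC (pdm i P) := fun a b =>
  (((h a b).fderiv_right (m := ∞) (mod_cast le_top))).clm_apply contDiff_const

section Z

variable (H : Hy n N k 0 m C δ)
include H

/-- coefficients at the second point -/
theorem ut {f : Cf n N k δ 0 → MC n N} {j : ℕ} (h : Km j f) :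
    UM rk (yk (n := n) (N := N) (k := k) (δ := δ)) (fun p => p.q.c.B) j 0
      (fun p z => f p.q.c z) :=
  (UM.idx (fun p : Qk n N k δ => p.q.c) h).chr

theorem uty {f : Cf n N k δ 0 → MC n N} {j : ℕ} (h : Ym j f) :
    UM rk (yk (n := n) (N := N) (k := k) (δ := δ)) 1 j 0 (fun p z => f p.q.c z) :=
  (UM.idx (fun p : Qk n N k δ => p.q.c) h).chr

theorem uto {f : Cf n N k δ 0 → V n → ℂ} {j : ℕ} (h : Yo j f) :
    UO rk (yk (n := n) (N := N) (k := k) (δ := δ)) 1 j 0 (fun p z => f p.q.c z) :=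
  (UO.idx (fun p : Qk n N k δ => p.q.c) h).chr

theorem um_D (a : Fin n) : UM rk (yk (n := n) (N := N) (k := k) (δ := δ)) Uk 0 0
    (fun p => p.q.c.D a) := fun i j =>
  uo_val (fun p => p.q.c.rl.sD a i j) fun p => u_D _ _ _ _ _ _ a i j

theorem um_dD (l a : Fin n) : UM rk (yk (n := n) (N := N) (k := k) (δ := δ)) Uk 0 0
    (fun p => pdm l (p.q.c.D a)) := fun i j =>
  uo_val (fun p => sm_pdm (p.q.c.rl.sD a) l i j) fun p => u_dD _ _ _ _ _ _ l a i j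

theorem um_Zt (i j : Fin n) : UM rk (yk (n := n) (N := N) (k := k) (δ := δ)) Uk 0 0
    (fun p => Zt p.q.c.s₁ p.q.c.s₂ p.q.c.P₁ p.q.c.P₂ i j) := by
  have h1 : UO rk (yk (n := n) (N := N) (k := k) (δ := δ)) Uk 0 0
      (fun p x => ((p.q.c.s₂ x i j - p.q.c.s₁ x i j : ℝ) : ℂ)) := by
    refine uo_val (fun p => Complex.ofRealCLM.contDiff.comp
      ((p.q.c.rl.d₂.ss i j).sub (p.q.c.rl.d₁.ss i j))) fun p => ?_
    rw [Complex.norm_real]
    exact u_s _ _ _ _ _ _ i j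
  have h2 : UM rk (yk (n := n) (N := N) (k := k) (δ := δ)) Uk 0 0
      (fun p x => p.q.c.P₂ x - p.q.c.P₁ x) := fun a b =>
    uo_val (fun p => (p.q.c.rl.d₂.sP a b).sub (p.q.c.rl.d₁.sP a b))
      fun p => u_P _ _ _ _ _ _ a b
  have h3 : UM rk (yk (n := n) (N := N) (k := k) (δ := δ)) (fun p => Uk p * 1) 0 0
      (fun p x => ((p.q.c.s₂ x i j - p.q.c.s₁ x i j : ℝ) : ℂ) • p.q.c.P₂ x) :=
    UM.smulW h1 (uty H (ym H (by omega) (g_P H)))
  have h4 : UM rk (yk (n := n) (N := N) (k := k) (δ := δ)) Uk 0 0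
      (fun p x => (p.q.c.s₁ x i j : ℂ) • (p.q.c.P₂ x - p.q.c.P₁ x)) :=
    UM.csmul (uto H (yo H (by omega) (g_s1 H i j))) h2
  refine ((h3.monoW fun p => le_of_eq (mul_one _)).add h4).of_eq fun p x => ?_
  unfold Zt TP
  rw [smul_sub]
  push_cast
  rw [sub_smul]
  abel

theorem uo_Bj (j : Fin n) : UO rk (yk (n := n) (N := N) (k := k) (δ := δ))
    (fun p => p.q.T * (Uk p * p.q.c.B)) 0 0
    (fun p => Bj p.q.c.s₁ p.q.c.s₂ p.q.c.P₁ p.q.c.P₂ p.q.c.G₂ p.q.c.Y p.q.c.D p.q.c.Γ p.q.c.k2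
      p.W j) := by
  have hle : ∀ p : Qk n N k δ, Uk p * p.q.c.B ≤ p.q.T * (Uk p * p.q.c.B) := fun p =>
    le_mul_of_one_le_left zero_le p.q.hT
  have hm := H.lm
  have hW : ∀ a, UM rk (yk (n := n) (N := N) (k := k) (δ := δ)) (fun p => p.q.c.B) 1 0
      (fun p => p.W a) := by
    intro a i j
    refine ⟨1, zero_le_one, fun p => ⟨p.sW a i j, fun e he => ?_⟩⟩
    simp only [Nat.zero_sub, pow_zero, mul_one, one_mul]
    exact p.bW a i j e (by omega)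
  have hW0 : ∀ a, UM rk (yk (n := n) (N := N) (k := k) (δ := δ)) (fun p => p.q.c.B) 0 0
      (fun p => p.W a) := fun a => (hW a).mono (by omega) le_rfl
  have hdY : ∀ i a, UM rk (yk (n := n) (N := N) (k := k) (δ := δ)) (fun p => p.q.T) 0 0
      (fun p => pdm i (p.q.c.Y a)) := fun i a =>
    um_pdm ((UM.idx (fun p : Qk n N k δ => p.q) (um_Y H a 1 (by omega))).chr) i
  have hT : ∀ i j, UM rk (yk (n := n) (N := N) (k := k) (δ := δ)) 1 0 0
      (fun p => TP p.q.c.s₂ p.q.c.P₂ i j) := fun i j => uty H (ym H (by omega) (g_T H i j))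
  have hk : ∀ j, UM rk (yk (n := n) (N := N) (k := k) (δ := δ)) 1 0 0
      (fun p => kp p.q.c.s₂ p.q.c.G₂ j) := fun j => uty H (ym H (by omega) (g_kp H j))
  have hΓ : ∀ a b, UM rk (yk (n := n) (N := N) (k := k) (δ := δ)) 1 0 0
      (fun p => p.q.c.Γ a b) := fun a b => uty H (ym H (by omega) (g_Γ H a b))
  have h1 : UO rk (yk (n := n) (N := N) (k := k) (δ := δ)) (fun p => p.q.T * (Uk p * p.q.c.B)) 0 0
      (fun p x => ∑ i, ∑ a, (Zt p.q.c.s₁ p.q.c.s₂ p.q.c.P₁ p.q.c.P₂ j i x *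
        pdm i (p.q.c.Y a) x * p.W a x).trace) := by
    refine UO.sum Finset.univ fun i _ => UO.sum Finset.univ fun a _ => ?_
    exact (UM.monoW (UM.mulW (UM.mulW (um_Zt H j i) (hdY i a)) (hW0 a))
      fun p => le_of_eq (by ring)).trace
  have h2 : UO rk (yk (n := n) (N := N) (k := k) (δ := δ)) (fun p => Uk p * p.q.c.B) 0 0
      (fun p x => ∑ l, ∑ a, (TP p.q.c.s₂ p.q.c.P₂ j l x * pdm l (p.q.c.D a) x *
        p.W a x).trace) :=
    UO.sum Finset.univ fun l _ => UO.sum Finset.univ fun a _ =>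
      (UM.mulW (UM.cmul (hT j l) (um_dD H l a)) (hW0 a)).trace
  have h3 : UO rk (yk (n := n) (N := N) (k := k) (δ := δ)) (fun p => Uk p * p.q.c.B) 0 0
      (fun p x => ∑ l, ∑ a, (TP p.q.c.s₂ p.q.c.P₂ l j x * p.q.c.D a x *
        pdm l (p.W a) x).trace) :=
    UO.sum Finset.univ fun l _ => UO.sum Finset.univ fun a _ =>
      (UM.mulW (UM.cmul (hT l j) (um_D H a)) (um_pdm (hW a) l)).trace
  have h4 : UO rk (yk (n := n) (N := N) (k := k) (δ := δ)) (fun p => Uk p * p.q.c.B) 0 0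
      (fun p x => ∑ a, (kp p.q.c.s₂ p.q.c.G₂ j x * p.q.c.D a x * p.W a x).trace) :=
    UO.sum Finset.univ fun a _ => (UM.mulW (UM.cmul (hk j) (um_D H a)) (hW0 a)).trace
  have h5 : UO rk (yk (n := n) (N := N) (k := k) (δ := δ)) (fun p => Uk p * p.q.c.B) 0 0
      (fun p x => 2 * ∑ a, ∑ b, ∑ l, (p.q.c.D a x * p.q.c.Γ a b x * p.q.c.k2 l b x *
        TP p.q.c.s₂ p.q.c.P₂ j l x).trace) :=
    (UO.const (2 : ℂ)).cmul (UO.sum Finset.univ fun a _ => UO.sum Finset.univ fun b _ =>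
      UO.sum Finset.univ fun l _ =>
        (UM.mulc (UM.mulW (UM.mulc (um_D H a) (hΓ a b))
          (((ut H (km_k2 l b))).mono (by omega) le_rfl)) (hT j l)).trace)
  exact (((h1.add (h2.monoW hle)).sub (h3.monoW hle)).add (h4.monoW hle)).add (h5.monoW hle)

end Z

end Vale.Agent.P088.S4.H871
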