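import Vale.Agent.P088.R2.H359.Cal

/-!
# P088, stage 4, row QMWN: the cut-off kernel, commutators
-/

open MeasureTheory Set Filter
open scoped ContDiff Matrix NNReal Topology

noncomputable section

namespace Vale.Agent.P088.S4.H871

open Vale.Agent.P088.LR Vale.Agent.P088.LR.U Vale.Agent.P088.LR.H158
open Vale.Agent.P088.HY (VV)
open Vale.Agent.P088.PJ
open Vale.Agent.P088.PJ.H359 (DD ex ey dxk_eq dyk_eq smk_univ da smk_DD)

variable {n N : ℕ}

/-- the cut-off kernel -/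
def ck (η : VV n → ℝ) (K : KC n N) : KC n N := fun z => (η z : ℂ) • K z

/-- the complex function of a real one -/
def cf (η : VV n → ℝ) (z : VV n) : ℂ := (η z : ℂ)

/-- its directional derivative -/
def d1' (η : VV n → ℝ) (v : VV n) (z : VV n) : ℂ := fderiv ℝ (cf η) z v

/-- the second derivative -/
def d2' (η : VV n → ℝ) (v w : VV n) (z : VV n) : ℂ := fderiv ℝ (d1' η w) z v

section

variable {η : VV n → ℝ} (hη : ContDiff ℝ ∞ η) {K : KC n N} (hK : SmK univ K)
include hη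

theorem cf_sm : ContDiff ℝ ∞ (cf η) := Complex.ofRealCLM.contDiff.comp hη

theorem d1_sm (v : VV n) : ContDiff ℝ ∞ (d1' η v) :=
  ((cf_sm hη).fderiv_right (m := ∞) (mod_cast le_top)).clm_apply contDiff_const

include hK

theorem ck_sm : SmK univ (ck η K) := by
  refine smk_univ.2 fun a b => ?_
  show ContDiff ℝ ∞ fun z => ((η z : ℂ) • K z) a b
  simp only [Matrix.smul_apply, smul_eq_mul]
  exact (cf_sm hη).mul (smk_univ.1 hK a b)

omit hη in
/-- product rule -/
theorem DD_sm {c : VV n → ℂ} (hc : ContDiff ℝ ∞ c) (v z : VV n) :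
    DD v (fun z => c z • K z) z = fderiv ℝ c z v • K z + c z • DD v K z := by
  ext a b
  have h1 : DifferentiableAt ℝ c z := (hc.differentiable (by simp)).differentiableAt
  have h2 := da isOpen_univ hK (mem_univ z) a b
  simp only [DD, Matrix.of_apply, Matrix.smul_apply, Matrix.add_apply, smul_eq_mul]
  rw [fderiv_fun_mul h1 h2]
  simp only [ContinuousLinearMap.add_apply, ContinuousLinearMap.smul_apply, smul_eq_mul]
  ring

theorem DD_ck (v z : VV n) : DD v (ck η K) z = d1' η v z • K z + cf η z • DD v K z :=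
  DD_sm hK (cf_sm hη) v z

theorem DD2_ck (v w z : VV n) : DD v (DD w (ck η K)) z =
    d2' η v w z • K z + d1' η w z • DD v K z + d1' η v z • DD w K z + cf η z • DD v (DD w K) z := by
  have e : DD w (ck η K) = fun z => (fun z => d1' η w z • K z) z + (fun z => cf η z • DD w K z) z :=
    funext fun z => DD_ck hη hK w z
  have s1 : SmK univ (fun z => d1' η w z • K z) :=
    PJ.H359.smk_smul (d1_sm hη w).contDiffOn hK
  have s2 : SmK univ (fun z => cf η z • DD w K z) :=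
    PJ.H359.smk_smul (cf_sm hη).contDiffOn (smk_DD isOpen_univ w hK)
  rw [e, PJ.H359.DD_add isOpen_univ v s1 s2 z (mem_univ z), DD_sm hK (d1_sm hη w),
    DD_sm (smk_DD isOpen_univ w hK) (cf_sm hη)]
  unfold d2' d1'
  abel

/-- The commutator in `x`. -/
theorem Lk_ck (s : MF n) (β : Fin n → MC n N) (z : VV n) :
    Lk s β (ck η K) z = (η z : ℂ) • Lk s β K z +
      ((∑ i, ∑ j, (s z.1 i j : ℂ) • (d2' η (ex i) (ex j) z • K z + d1' η (ex j) z • dxk i K z +
        d1' η (ex i) z • dxk j K z)) + ∑ i, β i z.1 * (d1' η (ex i) z • K z)) := by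
  unfold Lk
  simp only [dxk_eq, DD_ck hη hK, DD2_ck hη hK]
  have h1 : ∀ i j, (s z.1 i j : ℂ) • (d2' η (ex i) (ex j) z • K z + d1' η (ex j) z • DD (ex i) K z +
      d1' η (ex i) z • DD (ex j) K z + cf η z • DD (ex i) (DD (ex j) K) z) =
      (s z.1 i j : ℂ) • (d2' η (ex i) (ex j) z • K z + d1' η (ex j) z • DD (ex i) K z +
      d1' η (ex i) z • DD (ex j) K z) +
      (η z : ℂ) • ((s z.1 i j : ℂ) • DD (ex i) (DD (ex j) K) z) := by
    intro i j
    rw [smul_add, smul_comm (s z.1 i j : ℂ) (cf η z)]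
    rfl
  have h2 : ∀ i, β i z.1 * (d1' η (ex i) z • K z + cf η z • DD (ex i) K z) =
      β i z.1 * (d1' η (ex i) z • K z) + (η z : ℂ) • (β i z.1 * DD (ex i) K z) := by
    intro i
    rw [mul_add, Matrix.mul_smul (β i z.1) (cf η z)]
    rfl
  simp only [h1, h2, Finset.sum_add_distrib, smul_add, Finset.smul_sum]
  abel

/-- The commutator in `y`. -/
theorem Rk_ck (s : MF n) (β : Fin n → MC n N) (z : VV n) :
    Rk s β (ck η K) z = (η z : ℂ) • Rk s β K z +
      ((∑ i, ∑ j, (s z.2 i j : ℂ) • (d2' η (ey i) (ey j) z • K z + d1' η (ey j) z • dyk i K z +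
        d1' η (ey i) z • dyk j K z)) + ∑ i, (d1' η (ey i) z • K z) * β i z.2) := by
  unfold Rk
  simp only [dyk_eq, DD_ck hη hK, DD2_ck hη hK]
  have h1 : ∀ i j, (s z.2 i j : ℂ) • (d2' η (ey i) (ey j) z • K z + d1' η (ey j) z • DD (ey i) K z +
      d1' η (ey i) z • DD (ey j) K z + cf η z • DD (ey i) (DD (ey j) K) z) =
      (s z.2 i j : ℂ) • (d2' η (ey i) (ey j) z • K z + d1' η (ey j) z • DD (ey i) K z +
      d1' η (ey i) z • DD (ey j) K z) +
      (η z : ℂ) • ((s z.2 i j : ℂ) • DD (ey i) (DD (ey j) K) z) := by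
    intro i j
    rw [smul_add, smul_comm (s z.2 i j : ℂ) (cf η z)]
    rfl
  have h2 : ∀ i, (d1' η (ey i) z • K z + cf η z • DD (ey i) K z) * β i z.2 =
      (d1' η (ey i) z • K z) * β i z.2 + (η z : ℂ) • (DD (ey i) K z * β i z.2) := by
    intro i
    rw [add_mul, Matrix.smul_mul (cf η z)]
    rfl
  simp only [h1, h2, Finset.sum_add_distrib, smul_add, Finset.smul_sum]
  abel

end

/-! ## Bounds -/

theorem ex_norm (i : Fin n) : ‖(ex i : VV n)‖ ≤ 1 := by
  show ‖((Pi.single i 1, 0) : VV n)‖ ≤ 1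
  rw [Prod.norm_def, max_le_iff]
  constructor
  · refine (pi_norm_le_iff_of_nonneg zero_le_one).mpr fun j => ?_
    rcases eq_or_ne j i with rfl | hj
    · simp
    · simp [Pi.single_eq_of_ne hj]
  · simp

theorem ey_norm (i : Fin n) : ‖(ey i : VV n)‖ ≤ 1 := by
  show ‖((0, Pi.single i 1) : VV n)‖ ≤ 1
  rw [Prod.norm_def, max_le_iff]
  constructor
  · simp
  · refine (pi_norm_le_iff_of_nonneg zero_le_one).mpr fun j => ?_
    rcases eq_or_ne j i with rfl | hj
    · simp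
    · simp [Pi.single_eq_of_ne hj]

section bd

variable {η : VV n → ℝ} (hη : ContDiff ℝ ∞ η)
include hη

theorem cf_it (l : ℕ) (z : VV n) :
    ‖iteratedFDeriv ℝ l (cf η) z‖ = ‖iteratedFDeriv ℝ l η z‖ :=
  LinearIsometry.norm_iteratedFDeriv_comp_left Complex.ofRealLI
    (hη.of_le (m := l) (mod_cast le_top)).contDiffAt le_rfl

theorem d1_bd {b : ℝ} {z : VV n} (hb : ‖iteratedFDeriv ℝ 1 η z‖ ≤ b) {v : VV n} (hv : ‖v‖ ≤ 1) :
    ‖d1' η v z‖ ≤ b := by
  have h1 : ‖fderiv ℝ (cf η) z‖ ≤ b := by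
    rw [← norm_iteratedFDeriv_one, cf_it hη]
    exact hb
  refine ((fderiv ℝ (cf η) z).le_opNorm v).trans ?_
  calc ‖fderiv ℝ (cf η) z‖ * ‖v‖ ≤ ‖fderiv ℝ (cf η) z‖ * 1 :=
        mul_le_mul_of_nonneg_left hv (norm_nonneg _)
    _ ≤ b := by rw [mul_one]; exact h1

theorem d2_bd {b : ℝ} {z : VV n} (hb : ‖iteratedFDeriv ℝ 2 η z‖ ≤ b) {v w : VV n} (hv : ‖v‖ ≤ 1)
    (hw : ‖w‖ ≤ 1) : ‖d2' η v w z‖ ≤ b := by
  have hs : ContDiff ℝ ∞ (fderiv ℝ (cf η)) := (cf_sm hη).fderiv_right (m := ∞) (mod_cast le_top)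
  have hd : DifferentiableAt ℝ (fderiv ℝ (cf η)) z :=
    (hs.differentiable (by simp)).differentiableAt
  have h : HasFDerivAt (d1' η w)
      ((ContinuousLinearMap.apply ℝ ℂ w).comp (fderiv ℝ (fderiv ℝ (cf η)) z)) z :=
    (ContinuousLinearMap.apply ℝ ℂ w).hasFDerivAt.comp z hd.hasFDerivAt
  have h1 : ‖fderiv ℝ (fderiv ℝ (cf η)) z‖ ≤ b := by
    rw [← norm_iteratedFDeriv_one, norm_iteratedFDeriv_fderiv, cf_it hη]
    exact hb
  unfold d2'
  rw [h.fderiv]
  show ‖fderiv ℝ (fderiv ℝ (cf η)) z v w‖ ≤ b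
  refine ((fderiv ℝ (fderiv ℝ (cf η)) z).le_opNorm₂ v w).trans ?_
  calc ‖fderiv ℝ (fderiv ℝ (cf η)) z‖ * ‖v‖ * ‖w‖ ≤ ‖fderiv ℝ (fderiv ℝ (cf η)) z‖ * 1 * 1 := by
        gcongr
    _ ≤ b := by rw [mul_one, mul_one]; exact h1

end bd

/-- Bound of the commutator (an expression in numbers and matrices). -/
theorem com_le {b B : ℝ} (hb : 0 ≤ b) (hB : 0 ≤ B) {s : Fin n → Fin n → ℝ}
    {β : Fin n → Matrix (Fin N) (Fin N) ℂ}
    {e2 : Fin n → Fin n → ℂ} {e1 : Fin n → ℂ} {A : Matrix (Fin N) (Fin N) ℂ}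
    {A' : Fin n → Matrix (Fin N) (Fin N) ℂ} (hs : ∀ i j, |s i j| ≤ 2) (hβ : ∀ i a b, ‖β i a b‖ ≤ 1)
    (h2 : ∀ i j, ‖e2 i j‖ ≤ b) (h1 : ∀ i, ‖e1 i‖ ≤ b) (hA : ∀ a b, ‖A a b‖ ≤ B)
    (hA' : ∀ i a b, ‖A' i a b‖ ≤ B) (a' b' : Fin N) :
    ‖((∑ i, ∑ j, (s i j : ℂ) • (e2 i j • A + e1 j • A' i + e1 i • A' j)) +
      ∑ i, β i * (e1 i • A)) a' b'‖ ≤ (6 * n ^ 2 + n * N) * (b * B) ∧
    ‖((∑ i, ∑ j, (s i j : ℂ) • (e2 i j • A + e1 j • A' i + e1 i • A' j)) +
      ∑ i, (e1 i • A) * β i) a' b'‖ ≤ (6 * n ^ 2 + n * N) * (b * B) := by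
  have hbB : 0 ≤ b * B := mul_nonneg hb hB
  have k1 : ∀ i j, ‖((s i j : ℂ) • (e2 i j • A + e1 j • A' i + e1 i • A' j)) a' b'‖ ≤
      6 * (b * B) := by
    intro i j
    rw [Matrix.smul_apply, Matrix.add_apply, Matrix.add_apply, Matrix.smul_apply,
      Matrix.smul_apply, Matrix.smul_apply, norm_smul, Complex.norm_real, Real.norm_eq_abs]
    have m1 : ‖e2 i j • A a' b'‖ ≤ b * B := by
      rw [norm_smul]; exact mul_le_mul (h2 i j) (hA _ _) (norm_nonneg _) hb
    have m2 : ‖e1 j • A' i a' b'‖ ≤ b * B := by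
      rw [norm_smul]; exact mul_le_mul (h1 j) (hA' _ _ _) (norm_nonneg _) hb
    have m3 : ‖e1 i • A' j a' b'‖ ≤ b * B := by
      rw [norm_smul]; exact mul_le_mul (h1 i) (hA' _ _ _) (norm_nonneg _) hb
    have m4 := norm_add₃_le (a := e2 i j • A a' b') (b := e1 j • A' i a' b')
      (c := e1 i • A' j a' b')
    calc |s i j| * _ ≤ 2 * (3 * (b * B)) :=
          mul_le_mul (hs i j) (m4.trans (by linarith)) (norm_nonneg _) (by norm_num)
      _ = _ := by ring
  have k2 : ‖(∑ i, ∑ j, (s i j : ℂ) • (e2 i j • A + e1 j • A' i + e1 i • A' j)) a' b'‖ ≤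
      6 * n ^ 2 * (b * B) := by
    rw [Matrix.sum_apply]
    refine (norm_sum_le _ _).trans ?_
    have : ∀ i ∈ (Finset.univ : Finset (Fin n)),
        ‖(∑ j, (s i j : ℂ) • (e2 i j • A + e1 j • A' i + e1 i • A' j)) a' b'‖ ≤
          n * (6 * (b * B)) := by
      intro i _
      rw [Matrix.sum_apply]
      refine (norm_sum_le _ _).trans ?_
      refine (Finset.sum_le_sum fun j _ => k1 i j).trans ?_
      rw [Finset.sum_const, Finset.card_univ, Fintype.card_fin, nsmul_eq_mul]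
    refine (Finset.sum_le_sum this).trans ?_
    rw [Finset.sum_const, Finset.card_univ, Fintype.card_fin, nsmul_eq_mul]
    exact le_of_eq (by ring)
  have k0 : ∀ i a b, ‖(e1 i • A) a b‖ ≤ b * 0 + ‖e1 i‖ * B := by
    intro i a c
    rw [Matrix.smul_apply, norm_smul, mul_zero, zero_add]
    exact mul_le_mul_of_nonneg_left (hA _ _) (norm_nonneg _)
  have k0' : ∀ i a c, ‖(e1 i • A) a c‖ ≤ b * B := by
    intro i a c
    rw [Matrix.smul_apply, norm_smul]
    exact mul_le_mul (h1 i) (hA _ _) (norm_nonneg _) hb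
  have k3 : ‖(∑ i, β i * (e1 i • A)) a' b'‖ ≤ n * N * (b * B) := by
    rw [Matrix.sum_apply]
    refine (norm_sum_le _ _).trans ?_
    have : ∀ i ∈ (Finset.univ : Finset (Fin n)), ‖(β i * (e1 i • A)) a' b'‖ ≤ N * (b * B) := by
      intro i _
      rw [Matrix.mul_apply]
      refine (norm_sum_le _ _).trans ?_
      refine (Finset.sum_le_sum fun c _ => (?_ : _ ≤ b * B)).trans ?_
      · rw [norm_mul]
        calc _ ≤ 1 * (b * B) := mul_le_mul (hβ _ _ _) (k0' _ _ _) (norm_nonneg _) zero_le_one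
          _ = _ := one_mul _
      · rw [Finset.sum_const, Finset.card_univ, Fintype.card_fin, nsmul_eq_mul]
    refine (Finset.sum_le_sum this).trans ?_
    rw [Finset.sum_const, Finset.card_univ, Fintype.card_fin, nsmul_eq_mul]
    exact le_of_eq (by ring)
  have k4 : ‖(∑ i, (e1 i • A) * β i) a' b'‖ ≤ n * N * (b * B) := by
    rw [Matrix.sum_apply]
    refine (norm_sum_le _ _).trans ?_
    have : ∀ i ∈ (Finset.univ : Finset (Fin n)), ‖((e1 i • A) * β i) a' b'‖ ≤ N * (b * B) := by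
      intro i _
      rw [Matrix.mul_apply]
      refine (norm_sum_le _ _).trans ?_
      refine (Finset.sum_le_sum fun c _ => (?_ : _ ≤ b * B)).trans ?_
      · rw [norm_mul]
        calc _ ≤ (b * B) * 1 := mul_le_mul (k0' _ _ _) (hβ _ _ _) (norm_nonneg _) hbB
          _ = _ := mul_one _
      · rw [Finset.sum_const, Finset.card_univ, Fintype.card_fin, nsmul_eq_mul]
    refine (Finset.sum_le_sum this).trans ?_
    rw [Finset.sum_const, Finset.card_univ, Fintype.card_fin, nsmul_eq_mul]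
    exact le_of_eq (by ring)
  constructor
  · rw [Matrix.add_apply]
    refine (norm_add_le _ _).trans ((add_le_add k2 k3).trans (le_of_eq (by ring)))
  · rw [Matrix.add_apply]
    refine (norm_add_le _ _).trans ((add_le_add k2 k4).trans (le_of_eq (by ring)))

/-- Where the cut-off is locally constant. -/
theorem d1_zero {η : VV n → ℝ} {z : VV n} (hη : ContDiff ℝ ∞ η) (hz : z ∉ tsupport (fderiv ℝ η))
    (v : VV n) : d1' η v =ᶠ[𝓝 z] fun _ => 0 := by
  filter_upwards [notMem_tsupport_iff_eventuallyEq.mp hz] with w hw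
  have h : HasFDerivAt (cf η) (Complex.ofRealCLM.comp (fderiv ℝ η w)) w :=
    Complex.ofRealCLM.hasFDerivAt.comp w
      ((hη.differentiable (by simp)).differentiableAt (x := w)).hasFDerivAt
  unfold d1'
  rw [h.fderiv, hw]
  simp

theorem d2_zero {η : VV n → ℝ} {z : VV n} (hη : ContDiff ℝ ∞ η) (hz : z ∉ tsupport (fderiv ℝ η))
    (v w : VV n) : d2' η v w z = 0 := by
  unfold d2'
  rw [(d1_zero hη hz w).fderiv_eq]
  simp

end Vale.Agent.P088.S4.H871
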