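import Vale.Agent.P088.R2.H871.Q.Uw

/-!
# P088, stage 4, row QMWN: the families, bounds of the right hand sides and of the kernel
-/

open MeasureTheory Set
open scoped ContDiff Matrix NNReal

noncomputable section

namespace Vale.Agent.P088.S4.H871

open Vale.Agent.P088.LR Vale.Agent.P088.LR.U Vale.Agent.P088.LR.H158
open Vale.Agent.P088.HY (VV)
open Vale.Agent.P088.PJ
open Vale.Agent.P088.PJ.H696 (Bd BM CB bd_re bm_cl bd_cl bm_sm bm_pdm pdm_subc)

variable {n N k l m : ℕ} {δ C : ℝ}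

/-- A configuration with the size of the second point. -/
structure Qt (n N k : ℕ) (δ : ℝ) (l : ℕ) where
  c : Cf n N k δ l
  T : ℝ≥0
  hT : 1 ≤ T
  h2 : ‖c.z.2‖ ≤ T

/-- the right hand side of the equation of `W_a` -/
def Fa (s₁ s₂ τ : MF n) (P₂ : MC n N) (G₂ β : Fin n → MC n N) (Γ : Fin n → Fin n → MC n N)
    (k2 : Fin n → Fin n → MC n N) (a : Fin n) : MC n N := fun x =>
  ∑ b, Γ a b x * rh s₁ s₂ τ P₂ G₂ β k2 b x * (P₂ x)⁻¹

/-- the right hand side of the equation of `W_0` -/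
def F0 (s₁ s₂ τ : MF n) (P₂ : MC n N) (G₂ β Y : Fin n → MC n N) (Γ : Fin n → Fin n → MC n N)
    (k2 : Fin n → Fin n → MC n N) : MC n N := fun x =>
  -((∑ i, ∑ j, k2 i j x * TP s₂ P₂ i j x
      + ∑ a, ∑ b, Y a x * (Γ a b x * rh s₁ s₂ τ P₂ G₂ β k2 b x)) * (P₂ x)⁻¹)

/-- the coordinates -/
theorem co_fd (x : V n) (a : Fin n) (i : Fin N) (j : Fin N) {l : ℕ} {T : ℝ} (hT : 1 ≤ T)
    (hx : ‖x‖ ≤ T) :
    ‖iteratedFDeriv ℝ l (fun x : V n => ((x a : ℂ) • (1 : Matrix (Fin N) (Fin N) ℂ)) i j) x‖ ≤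
      T := by
  have e : (fun x : V n => ((x a : ℂ) • (1 : Matrix (Fin N) (Fin N) ℂ)) i j) =
      ((ContinuousLinearMap.proj (R := ℝ) (φ := fun _ : Fin n => ℝ) a).smulRight
        ((1 : Matrix (Fin N) (Fin N) ℂ) i j)) := by
    funext x
    simp [Matrix.smul_apply]
  have h0 : ‖(1 : Matrix (Fin N) (Fin N) ℂ) i j‖ ≤ 1 := by
    rcases eq_or_ne i j with rfl | h
    · simp
    · simp [Matrix.one_apply_ne h]
  set L : V n →L[ℝ] ℂ := (ContinuousLinearMap.proj (R := ℝ) (φ := fun _ : Fin n => ℝ) a).smulRight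
        ((1 : Matrix (Fin N) (Fin N) ℂ) i j) with hL
  have hL1 : ‖L‖ ≤ 1 := by
    refine ContinuousLinearMap.opNorm_le_bound _ zero_le_one fun y => ?_
    rw [hL, ContinuousLinearMap.smulRight_apply, norm_smul, one_mul]
    refine (mul_le_mul (norm_le_pi_norm y a) h0 (norm_nonneg _) (norm_nonneg _)).trans ?_
    rw [mul_one]
  rw [e]
  rcases l with _ | _ | l
  · rw [norm_iteratedFDeriv_zero]
    refine (L.le_opNorm x).trans ?_
    calc ‖L‖ * ‖x‖ ≤ 1 * T := mul_le_mul hL1 hx (norm_nonneg _) zero_le_one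
      _ = T := one_mul T
  · rw [zero_add, norm_iteratedFDeriv_one, L.fderiv]
    exact hL1.trans hT
  · have h3 : iteratedFDeriv ℝ (l + 1 + 1) (L : V n → ℂ) x = 0 := by
      have : ‖iteratedFDeriv ℝ (l + 1 + 1) (L : V n → ℂ) x‖ = 0 := by
        rw [← norm_iteratedFDeriv_fderiv, show fderiv ℝ (L : V n → ℂ) = fun _ => L from
          funext fun y => L.fderiv, iteratedFDeriv_const_of_ne (Nat.succ_ne_zero l)]
        simp
      exact norm_eq_zero.mp this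
    rw [h3, norm_zero]
    linarith

section Y

variable (H : Hy n N k l m C δ)
include H

theorem y_jet (c : Cf n N k δ l) (a : Fin n) (i j : Fin N) (x : V n) {T : ℝ} (hT : 1 ≤ T)
    (hx : ‖x‖ ≤ T) : ∀ e ≤ m, ‖iteratedFDeriv ℝ e (fun x => c.Y a x i j) x‖ ≤ 2 * T := by
  intro e he
  have h1 := c.rl.cY a i j e (he.trans ((Nat.le_succ m).trans H.km)) x
  have hs1 : ContDiff ℝ ∞ (fun x : V n => (c.Y a x - (x a : ℂ) • (1 : Matrix (Fin N) (Fin N) ℂ)) i j) := by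
    simp only [Matrix.sub_apply, Matrix.smul_apply, smul_eq_mul]
    exact (c.rl.sY a i j).sub
      ((Complex.ofRealCLM.contDiff.comp (contDiff_apply ℝ ℝ a)).mul contDiff_const)
  have hs2 : ContDiff ℝ ∞ (fun x : V n => ((x a : ℂ) • (1 : Matrix (Fin N) (Fin N) ℂ)) i j) := by
    simp only [Matrix.smul_apply, smul_eq_mul]
    exact (Complex.ofRealCLM.contDiff.comp (contDiff_apply ℝ ℝ a)).mul contDiff_const
  have e1 : (fun x => c.Y a x i j) = fun x =>
      (c.Y a x - (x a : ℂ) • (1 : Matrix (Fin N) (Fin N) ℂ)) i j +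
        ((x a : ℂ) • (1 : Matrix (Fin N) (Fin N) ℂ)) i j := by
    funext x
    rw [Matrix.sub_apply, sub_add_cancel]
  rw [e1, fun_iteratedFDeriv_add_apply (hs1.of_le (mod_cast le_top)).contDiffAt
    (hs2.of_le (mod_cast le_top)).contDiffAt]
  refine (norm_add_le _ _).trans ?_
  have h2 := co_fd x a i j (l := e) hT hx
  have h3 := H.d1
  linarith

theorem km_Fa (a : Fin n) : Km (l + 1) (fun (c : Cf n N k δ l) =>
    Fa c.s₁ c.s₂ c.τ c.P₂ c.G₂ c.β c.Γ c.k2 a) :=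
  UM.sum Finset.univ fun b _ => UM.mulc (UM.cmul (ym H (by omega) (g_Γ H a b)) (km_rh H b))
    (ym H (by omega) (g_Pi H))

/-- the coordinate solutions -/
theorem um_Y (a : Fin n) (K : ℕ) (hK : K ≤ m) :
    UM (fun q : Qt n N k δ l => rr q.c) (fun q => yy q.c) Qt.T K 0 (fun q => q.c.Y a) := by
  intro i j
  refine ⟨2, by norm_num, fun q => ⟨q.c.rl.sY a i j, fun e he => ?_⟩⟩
  simp only [Nat.zero_sub, pow_zero, mul_one]
  exact y_jet H q.c a i j _ (by exact_mod_cast q.hT) q.h2 e (he.trans hK)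

theorem km_F0 : UM (fun q : Qt n N k δ l => rr q.c) (fun q => yy q.c) (fun q => q.T * q.c.B)
    (l + 1) 0 (fun q => F0 q.c.s₁ q.c.s₂ q.c.τ q.c.P₂ q.c.G₂ q.c.β q.c.Y q.c.Γ q.c.k2) := by
  have hm := H.lm
  have h1 : Km (l + 1) (fun (c : Cf n N k δ l) x => ∑ i, ∑ j, c.k2 i j x * TP c.s₂ c.P₂ i j x) :=
    UM.sum Finset.univ fun i _ => UM.sum Finset.univ fun j _ =>
      UM.mulc ((km_k2 i j).mono (by omega) le_rfl) (ym H (by omega) (g_T H i j))
  have h1' := (UM.idx (fun q : Qt n N k δ l => q.c) h1).monoW (W' := fun q => q.T * q.c.B)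
    fun q => le_mul_of_one_le_left zero_le q.hT
  have h2 : ∀ a b, Km (l + 1) (fun (c : Cf n N k δ l) x =>
      c.Γ a b x * rh c.s₁ c.s₂ c.τ c.P₂ c.G₂ c.β c.k2 b x) := fun a b =>
    UM.cmul (ym H (by omega) (g_Γ H a b)) (km_rh H b)
  have h3 : UM (fun q : Qt n N k δ l => rr q.c) (fun q => yy q.c) (fun q => q.T * q.c.B)
      (l + 1) 0 (fun q x => ∑ a, ∑ b, q.c.Y a x * (q.c.Γ a b x *
        rh q.c.s₁ q.c.s₂ q.c.τ q.c.P₂ q.c.G₂ q.c.β q.c.k2 b x)) :=
    UM.sum Finset.univ fun a _ => UM.sum Finset.univ fun b _ =>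
      UM.mulW (um_Y H a (l + 1) (by omega)) (UM.idx (fun q : Qt n N k δ l => q.c) (h2 a b))
  have h4 : Ym (l + 1) (fun (c : Cf n N k δ l) x => (c.P₂ x)⁻¹) := ym H (by omega) (g_Pi H)
  exact (UM.mulc (h1'.add h3) (UM.idx (fun q : Qt n N k δ l => q.c) h4)).neg

end Y

end Vale.Agent.P088.S4.H871
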