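import Vale.Agent.P088.R2.H871.Q.Fm
import Vale.Agent.P088.R2.H871.Xkb

/-!
# P088, stage 4, row QMWN: bounds of the kernel
-/

open MeasureTheory Set
open scoped ContDiff Matrix NNReal

noncomputable section

namespace Vale.Agent.P088.S4.H871

open Vale.Agent.P088.LR Vale.Agent.P088.LR.U Vale.Agent.P088.LR.H158
open Vale.Agent.P088.HY (VV)
open Vale.Agent.P088.PJ
open Vale.Agent.P088.PJ.H696 (Bd BM CB bd_re bm_cl bd_cl bm_sm bm_pdm pdm_subc qL qL_apply qL_norm)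

variable {n N k l m : ℕ} {δ C : ℝ}

/-- A configuration with a first point and correctors. -/
structure Qk (n N k : ℕ) (δ : ℝ) where
  q : Qt n N k δ 0
  x : V n
  h1 : ‖x‖ ≤ q.T
  W : Fin n → MC n N
  W0 : MC n N
  sW : ∀ a, SmC (W a)
  s0 : SmC W0
  bW : ∀ c a b, ∀ m ≤ 2, ‖iteratedFDeriv ℝ m (fun x => W c x a b) q.c.z.2‖ ≤ q.c.B
  b0 : ∀ a b, ∀ m ≤ 2, ‖iteratedFDeriv ℝ m (fun x => W0 x a b) q.c.z.2‖ ≤ q.c.B

/-- the point -/
def zk (p : Qk n N k δ) : VV n := (p.x, p.q.c.z.2)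

/-- the radius `1` -/
def rk {ι : Type*} (_ : ι) : Set.Icc (0 : ℝ) 1 := ⟨1, zero_le_one, le_rfl⟩

/-- `x_b - y_b` for distant points -/
theorem uo_qT {ι : Type*} {zz : ι → VV n} {T : ι → ℝ≥0} (h1 : ∀ i, 1 ≤ T i)
    (hz : ∀ i, ‖(zz i).1 - (zz i).2‖ ≤ 2 * T i) (b : Fin n) (K : ℕ) :
    UO rk zz T K 0 (fun _ z => q b z) := by
  refine ⟨2, by norm_num, fun i => ⟨(qL b).contDiff, fun l _ => ?_⟩⟩
  simp only [Nat.zero_sub, pow_zero, mul_one]
  have hT : (1 : ℝ) ≤ T i := by exact_mod_cast h1 i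
  rcases l with _ | _ | l
  · rw [norm_iteratedFDeriv_zero]
    exact (q_le b (zz i)).trans (hz i)
  · have h7 : ‖iteratedFDeriv ℝ (0 + 1) (q b) (zz i)‖ = ‖fderiv ℝ (qL b) (zz i)‖ := by
      rw [zero_add]
      exact norm_iteratedFDeriv_one _
    rw [h7, (qL b).fderiv]
    have := qL_norm (n := n) b
    linarith
  · have h8 : ‖iteratedFDeriv ℝ (l + 1 + 1) (q b) (zz i)‖ = 0 := by
      have h9 : (q b : VV n → ℂ) = qL b := rfl
      rw [h9, ← norm_iteratedFDeriv_fderiv]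
      have : fderiv ℝ (qL b : VV n → ℂ) = fun _ => qL b := funext fun z => (qL b).fderiv
      rw [this, iteratedFDeriv_const_of_ne (by omega)]
      simp
    rw [h8]
    linarith

section Z

variable (H : Hy n N k 0 m C δ)
include H

theorem hqT (p : Qk n N k δ) : ‖(zk p).1 - (zk p).2‖ ≤ 2 * p.q.T := by
  have h1 := norm_sub_le (zk p).1 (zk p).2
  have h2 : ‖(zk p).1‖ ≤ p.q.T := p.h1
  have h3 : ‖(zk p).2‖ ≤ p.q.T := p.q.h2
  linarith

theorem uq (b : Fin n) (K : ℕ) : UO rk (zk (n := n) (N := N) (k := k) (δ := δ))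
    (fun p => p.q.T) K 0 (fun _ z => q b z) :=
  uo_qT (fun p => p.q.hT) (fun p => hqT H p) b K

/-- coefficients at the second point -/
theorem us {f : Cf n N k δ 0 → MC n N} {j : ℕ} (h : Km j f) :
    UM rk (zk (n := n) (N := N) (k := k) (δ := δ)) (fun p => p.q.c.B) j 0
      (fun p z => f p.q.c z.2) :=
  um_snd ((UM.idx (fun p : Qk n N k δ => p.q.c) h).chr)

theorem uso {f : Cf n N k δ 0 → V n → ℂ} {j : ℕ} (h : Yo j f) :
    UO rk (zk (n := n) (N := N) (k := k) (δ := δ)) 1 j 0 (fun p z => f p.q.c z.2) :=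
  uo_snd ((UO.idx (fun p : Qk n N k δ => p.q.c) h).chr)

theorem um_c3 : UM rk (zk (n := n) (N := N) (k := k) (δ := δ)) (fun p => p.q.T ^ 3 * p.q.c.B) 2 0
    (fun p => c3 p.q.c.s₁ p.q.c.τ p.q.c.β p.q.c.k2) := by
  intro a b
  have h1 : UO rk (zk (n := n) (N := N) (k := k) (δ := δ)) (fun p => p.q.T * p.q.T) 2 0
      (fun p z => Qf (fun i j x => (p.q.c.τ x i j : ℂ)) z) := by
    refine (UO.sum Finset.univ fun i _ => UO.sum Finset.univ fun j _ =>
      (uso H (yo H (by omega) (g_t H i j))).cmul ((uq H i 2).mul (uq H j 2))).of_eq fun p z => ?_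
    rfl
  have h2 : UO rk (zk (n := n) (N := N) (k := k) (δ := δ)) (fun p => p.q.c.B * p.q.T) 2 0
      (fun p z => Ef (fun i x => lb p.q.c.s₁ p.q.c.β p.q.c.k2 i x a b) z) := by
    refine (UO.sum Finset.univ fun i _ => (us H (km_lb H i) a b).mul (uq H i 2)).of_eq
      fun p z => ?_
    rfl
  have h3 := ((UO.const (r := rk) (z := zk (n := n) (N := N) (k := k) (δ := δ)) (K := 2)
    (-(1 / (2 * ((n : ℂ) + 2))))).cmul (h1.mul h2))
  refine (h3.monoW fun p => le_of_eq (by ring)).of_eq fun p z => (c3_eq _ _ _ _ z a b).symm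

theorem um_Kq : UM rk (zk (n := n) (N := N) (k := k) (δ := δ)) (fun p => p.q.T ^ 3 * p.q.c.B) 2 0
    (fun p => Kq p.q.c.s₁ p.q.c.τ p.q.c.β p.q.c.Y p.q.c.k2 p.W p.W0) := by
  have hT : ∀ p : Qk n N k δ, p.q.T * p.q.T * p.q.c.B ≤ p.q.T ^ 3 * p.q.c.B := fun p =>
    mul_le_mul_left (by
      calc p.q.T * p.q.T = p.q.T ^ 2 := (sq _).symm
        _ ≤ p.q.T ^ 3 := pow_le_pow_right₀ p.q.hT (by norm_num)) _
  have hT1 : ∀ p : Qk n N k δ, p.q.T * p.q.c.B ≤ p.q.T ^ 3 * p.q.c.B := fun p =>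
    mul_le_mul_left (le_self_pow₀ p.q.hT (by norm_num)) _
  have hT0 : ∀ p : Qk n N k δ, p.q.c.B ≤ p.q.T ^ 3 * p.q.c.B := fun p =>
    le_mul_of_one_le_left zero_le (one_le_pow₀ p.q.hT)
  have h1 : UM rk (zk (n := n) (N := N) (k := k) (δ := δ)) (fun p => p.q.T ^ 3 * p.q.c.B) 2 0
      (fun p z => (1 / 2 : ℂ) • (∑ a, ∑ b, (((z.1 a - z.2 a) * (z.1 b - z.2 b) : ℝ) : ℂ) •
        p.q.c.k2 a b z.2)) := by
    have h2 : UM rk (zk (n := n) (N := N) (k := k) (δ := δ)) (fun p => p.q.T * p.q.T * p.q.c.B)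
        2 0 (fun p z => ∑ a, ∑ b, (q a z * q b z) • p.q.c.k2 a b z.2) :=
      UM.sum Finset.univ fun a _ => UM.sum Finset.univ fun b _ =>
        UM.smulW ((uq H a 2).mul (uq H b 2)) (us H (km_k2 a b))
    refine (UM.csmul (UO.const (1 / 2 : ℂ)) (h2.monoW hT)).of_eq fun p z => ?_
    simp only [q, Complex.ofReal_mul]
  have h3 : UM rk (zk (n := n) (N := N) (k := k) (δ := δ)) (fun p => p.q.T ^ 3 * p.q.c.B) 2 0
      (fun p z => ∑ a, p.q.c.Y a z.1 * p.W a z.2) := by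
    refine UM.monoW (W := fun p => p.q.T * p.q.c.B) (UM.sum Finset.univ fun a _ => ?_) hT1
    have hY : UM rk (fun p : Qk n N k δ => (ContinuousLinearMap.fst ℝ (V n) (V n)) (zk p))
        (fun p => p.q.T) 2 0 (fun p => p.q.c.Y a) := by
      intro i j
      refine ⟨2, by norm_num, fun p => ⟨p.q.c.rl.sY a i j, fun e he => ?_⟩⟩
      simp only [Nat.zero_sub, pow_zero, mul_one]
      exact y_jet H p.q.c a i j _ (by exact_mod_cast p.q.hT) p.h1 e (he.trans (by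
        have := H.lm
        omega))
    have hY' : UM rk (zk (n := n) (N := N) (k := k) (δ := δ)) (fun p => p.q.T) 2 0
        (fun p z => p.q.c.Y a z.1) :=
      UM.comp (ContinuousLinearMap.fst ℝ (V n) (V n))
        (ContinuousLinearMap.norm_fst_le _ _ _) hY
    have hW : UM rk (zk (n := n) (N := N) (k := k) (δ := δ)) (fun p => p.q.c.B) 2 0
        (fun p z => p.W a z.2) := by
      refine um_snd (f := fun p : Qk n N k δ => p.W a) fun i j => ?_
      refine ⟨1, zero_le_one, fun p => ⟨p.sW a i j, fun e he => ?_⟩⟩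
      simp only [Nat.zero_sub, pow_zero, mul_one, one_mul]
      exact p.bW a i j e he
    exact UM.mulW hY' hW
  have h4 : UM rk (zk (n := n) (N := N) (k := k) (δ := δ)) (fun p => p.q.T ^ 3 * p.q.c.B) 2 0
      (fun p z => p.W0 z.2) := by
    refine UM.monoW (W := fun p => p.q.c.B) ?_ hT0
    refine um_snd (f := fun p : Qk n N k δ => p.W0) fun i j => ?_
    refine ⟨1, zero_le_one, fun p => ⟨p.s0 i j, fun e he => ?_⟩⟩
    simp only [Nat.zero_sub, pow_zero, mul_one, one_mul]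
    exact p.b0 i j e he
  exact ((h1.add (um_c3 H)).add h3).add h4

end Z

end Vale.Agent.P088.S4.H871
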