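import Vale.Agent.P088.R2.H871.Q.Fm
import Vale.Agent.P088.R2.H455.S4.SpecN
import Vale.Agent.P088.R2.H238.S3.Tfrw

/-!
# P088, stage 4, row QMWN: uniform bounds, smaller charts, cut-offs
-/

open MeasureTheory Set Filter
open scoped ContDiff Matrix NNReal Topology

noncomputable section

namespace Vale.Agent.P088.S4.H871

open Vale.Agent.P088.LR Vale.Agent.P088.LR.U Vale.Agent.P088.LR.H158
open Vale.Agent.P088.HY (VV)
open Vale.Agent.P088.PJ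
open Vale.Agent.P088.PJ.H696 (Bd BM CB bd_re bm_cl bd_cl bm_sm bm_pdm pdm_subc)

variable {n N : ℕ}

/-- The uniform bounds of the coefficients. -/
theorem mkHy (n N l : ℕ) : ∃ C δ₀ : ℝ, 1 ≤ C ∧ 0 < δ₀ ∧ δ₀ ≤ 1 ∧ ∀ δ, 0 ≤ δ → δ ≤ δ₀ →
    ∀ k, l + 3 ≤ k → Hy n N k l (l + 2) C δ := by
  obtain ⟨C, δ₁, hC1, hδ₁, hδ₁', hco⟩ := coef n N (l + 2)
  obtain ⟨Ct, δ₂, hCt, hδ₂, hδ₂', htau⟩ := tau_bd n (l + 2)
  refine ⟨C, min δ₁ δ₂, hC1, lt_min hδ₁ hδ₂, (min_le_left _ _).trans hδ₁', ?_⟩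
  intro δ h0 h1 k hk
  have hd1 := h1.trans (min_le_left _ _)
  refine ⟨fun c => ?_, fun c => ?_, fun c => ?_, fun c => ?_, fun i j => ⟨Ct, hCt, fun c => ?_⟩,
    by linarith, h0, hd1.trans hδ₁', le_rfl, by omega⟩
  · exact (hco δ h0 hd1 k (by omega) (c.O ∩ c.Kc) c.s₁ c.P₁ c.G₁ c.rl.d₁).1
  · exact (hco δ h0 hd1 k (by omega) (c.O ∩ c.Kc) c.s₂ c.P₂ c.G₂ c.rl.d₂).1
  · exact (hco δ h0 hd1 k (by omega) (c.O ∩ c.Kc) c.s₂ c.P₂ c.G₂ c.rl.d₂).2.1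
  · exact (hco δ h0 hd1 k (by omega) (c.O ∩ c.Kc) c.s₂ c.P₂ c.G₂ c.rl.d₂).2.2
  · exact htau δ h0 (h1.trans (min_le_right _ _)) c.s₁ c.τ c.rl.d₁.ss
      (fun i j l hl x => c.rl.d₁.cs i j l (by omega) x) c.te i j

section mono

variable {k k' : ℕ} {δ δ' : ℝ} {O O' Kc : Set (V n)}

theorem da_mono {s : MF n} {P : MC n N} {G : Fin n → MC n N} (hk : k' ≤ k) (hδ : δ ≤ δ')
    (hO : O' ⊆ O) (h : Da k δ O s P G) : Da k' δ' O' s P G where
  ss := h.ss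
  sy := h.sy
  sP := h.sP
  hP := h.hP
  sG := h.sG
  hG := h.hG
  cs := fun i j l hl x => (h.cs i j l (hl.trans hk) x).trans hδ
  cP := fun a b l hl x => (h.cP a b l (hl.trans hk) x).trans hδ
  cG := fun i a b l hl x => (h.cG i a b l (hl.trans hk) x).trans hδ
  dq := fun x hx => h.dq x (hO hx)
  pe := fun x hx => h.pe x (hO hx)

theorem rl_mono {j₀ : Fin N} {s₁ s₂ : MF n} {P₁ P₂ : MC n N} {G₁ G₂ β Y D : Fin n → MC n N}
    (hk : k' ≤ k) (hδ : δ ≤ δ') (hO : O' ⊆ O) (ho : IsOpen O')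
    (h : RL k δ O Kc j₀ s₁ s₂ P₁ P₂ G₁ G₂ β Y D) :
    RL k' δ' O' Kc j₀ s₁ s₂ P₁ P₂ G₁ G₂ β Y D where
  op := ho
  cl := h.cl
  d₁ := da_mono hk hδ (inter_subset_inter_left _ hO) h.d₁
  d₂ := da_mono hk hδ (inter_subset_inter_left _ hO) h.d₂
  sβ := h.sβ
  cβ := fun i a b l hl x => (h.cβ i a b l (hl.trans hk) x).trans hδ
  eβ := fun i x hx => h.eβ i x ⟨hO hx.1, hx.2⟩
  LY := fun a x hx => h.LY a x (hO hx)
  os := fun x hx => h.os x (hO hx)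
  oP := fun x hx => h.oP x (hO hx)
  oG := fun i x hx => h.oG i x (hO hx)
  oD := fun i x hx => h.oD i x (hO hx)
  sY := h.sY
  sD := h.sD
  cY := fun i a b l hl x => (h.cY i a b l (hl.trans hk) x).trans hδ
  cD := fun i a b l hl x => (h.cD i a b l (hl.trans hk) x).trans hδ
  tD := fun a x hx => h.tD a x (hO hx)
  hY := fun a x hx => h.hY a x ⟨hO hx.1, hx.2⟩
  gi := fun a x hx => h.gi a x ⟨hO hx.1, hx.2⟩

theorem ig_mono {Y : Fin n → MC n N} {Γ : Fin n → Fin n → MC n N}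
    (hk : k' ≤ k) (hδ : δ ≤ δ') (h : IG k δ Y Γ) : IG k' δ' Y Γ where
  sm := h.sm
  li := h.li
  ri := h.ri
  cl := fun a b i j l hl x => (h.cl a b i j l (hl.trans hk) x).trans hδ

theorem rlp_mono {d : PD n N} (hk : k' ≤ k) (hδ : δ ≤ δ') (hO : O' ⊆ O) (ho : IsOpen O')
    (h : RLP k δ O Kc d) : RLP k' δ' O' Kc d where
  rl := rl_mono hk hδ hO ho h.rl
  ig := ig_mono hk hδ h.ig
  st := h.st
  it := h.it

end mono

/-! ## Cut-off of a corrector -/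

/-- Extension by zero. -/
theorem smxC {O : Set (V n)} (hO : IsOpen O) {χ : V n → ℝ} {f : V n → ℂ} (hχ : ContDiff ℝ ∞ χ)
    (hs : tsupport χ ⊆ O) (hf : ContDiffOn ℝ ∞ f O) : ContDiff ℝ ∞ fun x => (χ x : ℂ) * f x := by
  rw [contDiff_iff_contDiffAt]
  intro x
  by_cases hx : x ∈ tsupport χ
  · exact (Complex.ofRealCLM.contDiff.comp hχ).contDiffAt.mul (hf.contDiffAt (hO.mem_nhds (hs hx)))
  · have h : χ =ᶠ[𝓝 x] fun _ => 0 := notMem_tsupport_iff_eventuallyEq.1 hx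
    have h1 : (fun y => (χ y : ℂ) * f y) =ᶠ[𝓝 x] fun _ => 0 := by
      filter_upwards [h] with y hy
      rw [hy, Complex.ofReal_zero, zero_mul]
    exact contDiffAt_const.congr_of_eventuallyEq h1

/-- A function on `U` agrees near a closed set with a smooth one. -/
theorem ext_loc {S U : Set (V n)} (hS : IsClosed S) (hU : IsOpen U) (hSU : S ⊆ U) :
    ∃ O' : Set (V n), IsOpen O' ∧ S ⊆ O' ∧ O' ⊆ U ∧ ∀ W : MC n N,
      (∀ i j, ContDiffOn ℝ ∞ (fun x => W x i j) U) → ∃ W' : MC n N, SmC W' ∧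
        ∀ x ∈ O', W' x = W x := by
  obtain ⟨χ, O, h1, h2, h3, h4, h5, -⟩ := R2.H238.S3.ex_cut hS hU hSU
  refine ⟨O ∩ U, h3.inter hU, subset_inter h4 hSU, inter_subset_right, fun W hW =>
    ⟨fun x => (χ x : ℂ) • W x, fun i j => ?_, fun x hx => ?_⟩⟩
  · show ContDiff ℝ ∞ fun x => ((χ x : ℂ) • W x) i j
    simp only [Matrix.smul_apply, smul_eq_mul]
    exact smxC hU h1 h2 (hW i j)
  · show (χ x : ℂ) • W x = W x
    rw [h5 x hx.1, Complex.ofReal_one, one_smul]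

theorem pdm_loc {U : Set (V n)} (hU : IsOpen U) {f g : MC n N} (h : ∀ x ∈ U, f x = g x) {x : V n}
    (hx : x ∈ U) (i : Fin n) : pdm i f x = pdm i g x := by
  ext a b
  have h1 : (fun y => f y a b) =ᶠ[𝓝 x] fun y => g y a b := by
    filter_upwards [hU.mem_nhds hx] with y hy
    rw [h y hy]
  show pd i (fun y => f y a b) x = pd i (fun y => g y a b) x
  unfold pd
  rw [h1.fderiv_eq]

theorem Rv_loc {U : Set (V n)} (hU : IsOpen U) {f g : MC n N} (h : ∀ x ∈ U, f x = g x) {x : V n}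
    (hx : x ∈ U) (s : MF n) (b : Fin n → MC n N) : Rv s b f x = Rv s b g x := by
  unfold Rv
  refine congrArg₂ _ (Finset.sum_congr rfl fun i _ => Finset.sum_congr rfl fun j _ => ?_)
    (Finset.sum_congr rfl fun i _ => ?_)
  · rw [pdm_loc hU (fun y hy => pdm_loc hU h hy j) hx i]
  · rw [pdm_loc hU h hx i]

theorem it_loc {U : Set (V n)} (hU : IsOpen U) {f g : MC n N} (h : ∀ x ∈ U, f x = g x) {x : V n}
    (hx : x ∈ U) (l : ℕ) (a b : Fin N) :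
    iteratedFDeriv ℝ l (fun y => f y a b) x = iteratedFDeriv ℝ l (fun y => g y a b) x := by
  have h1 : (fun y => f y a b) =ᶠ[𝓝 x] fun y => g y a b := by
    filter_upwards [hU.mem_nhds hx] with y hy
    rw [h y hy]
  exact (h1.iteratedFDeriv ℝ l).eq_of_nhds

end Vale.Agent.P088.S4.H871
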