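import Vale.Agent.P088.R2.H871.Fam

/-!
# P088, stage 4, row QMWN: more on the calculus `UO`
-/

open MeasureTheory Set
open scoped ContDiff Matrix NNReal

noncomputable section

namespace Vale.Agent.P088.S4.H871

open Vale.Agent.P088.LR Vale.Agent.P088.LR.U Vale.Agent.P088.LR.H158
open Vale.Agent.P088.HY (VV)
open Vale.Agent.P088.PJ
open Vale.Agent.P088.PJ.H696 (Bd BM)

section General

variable {ι κ E F : Type*} [NormedAddCommGroup E] [NormedSpace ℝ E]
  [NormedAddCommGroup F] [NormedSpace ℝ F] {N : ℕ}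
  {r r' : ι → Set.Icc (0 : ℝ) 1} {z : ι → E} {W W' : ι → ℝ≥0} {K j : ℕ}

/-- The radius is irrelevant if the order is `0`. -/
theorem UO.chr {f : ι → E → F} (h : UO r z W K 0 f) : UO r' z W K 0 f := by
  obtain ⟨C, hC, h⟩ := h
  refine ⟨C, hC, fun i => ⟨(h i).1, fun l hl => ?_⟩⟩
  have := (h i).2 l hl
  simpa using this

theorem UM.chr {f : ι → E → Matrix (Fin N) (Fin N) ℂ} (h : UM r z W K 0 f) :
    UM r' z W K 0 f := fun a b => (h a b).chr

/-- Change of the index. -/
theorem UO.idx (c : κ → ι) {f : ι → E → F} (h : UO r z W K j f) :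
    UO (fun x => r (c x)) (fun x => z (c x)) (fun x => W (c x)) K j (fun x => f (c x)) := by
  obtain ⟨C, hC, h⟩ := h
  exact ⟨C, hC, fun i => h (c i)⟩

theorem UM.idx (c : κ → ι) {f : ι → E → Matrix (Fin N) (Fin N) ℂ} (h : UM r z W K j f) :
    UM (fun x => r (c x)) (fun x => z (c x)) (fun x => W (c x)) K j (fun x => f (c x)) :=
  fun a b => (h a b).idx c

theorem UM.monoW {f : ι → E → Matrix (Fin N) (Fin N) ℂ} (h : UM r z W K j f)
    (hW : ∀ i, W i ≤ W' i) : UM r z W' K j f := fun a b => (h a b).monoW hW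

theorem UM.neg {f : ι → E → Matrix (Fin N) (Fin N) ℂ} (h : UM r z W K j f) :
    UM r z W K j (fun i x => -f i x) := fun a b => (h a b).neg

theorem UM.smulW {j₁ j₂ : ℕ} {f : ι → E → ℂ} {g : ι → E → Matrix (Fin N) (Fin N) ℂ}
    (h1 : UO r z W K j₁ f) (h2 : UM r z W' K j₂ g) :
    UM r z (fun i => W i * W' i) K (j₁ + j₂) (fun i x => f i x • g i x) := by
  intro a b
  refine (h1.mul (h2 a b)).of_eq fun i x => ?_
  rfl

theorem UM.mulW {j₁ j₂ : ℕ} {f g : ι → E → Matrix (Fin N) (Fin N) ℂ} (h1 : UM r z W K j₁ f)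
    (h2 : UM r z W' K j₂ g) :
    UM r z (fun i => W i * W' i) K (j₁ + j₂) (fun i x => f i x * g i x) := by
  intro a b
  refine (UO.sum (Finset.univ : Finset (Fin N)) (f := fun c i x => f i x a c * g i x c b)
    fun c _ => (h1 a c).mul (h2 c b)).of_eq fun i x => ?_
  exact (Matrix.mul_apply).symm

theorem UM.trace {f : ι → E → Matrix (Fin N) (Fin N) ℂ} (h : UM r z W K j f) :
    UO r z W K j (fun i x => (f i x).trace) := by
  refine (UO.sum (Finset.univ : Finset (Fin N)) (f := fun c i x => f i x c c)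
    fun c _ => h c c).of_eq fun i x => ?_
  rfl

/-- A common constant for the entries. -/
theorem UM.bd {f : ι → E → Matrix (Fin N) (Fin N) ℂ} (h : UM r z W K 0 f) :
    ∃ C : ℝ, 0 ≤ C ∧ ∀ i a b, ∀ l ≤ K, ‖iteratedFDeriv ℝ l (fun x => f i x a b) (z i)‖ ≤
      C * W i := by
  choose C hC h using h
  refine ⟨∑ a, ∑ b, C a b, Finset.sum_nonneg fun a _ => Finset.sum_nonneg fun b _ => hC a b,
    fun i a b l hl => ?_⟩
  have h1 := (h a b i).2 l hl
  simp only [Nat.zero_sub, pow_zero, mul_one] at h1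
  refine h1.trans (mul_le_mul_of_nonneg_right ?_ (W i).2)
  exact (Finset.single_le_sum (f := fun b => C a b) (fun b _ => hC a b) (Finset.mem_univ b)).trans
    (Finset.single_le_sum (f := fun a => ∑ b, C a b)
      (fun a _ => Finset.sum_nonneg fun b _ => hC a b) (Finset.mem_univ a))

end General

end Vale.Agent.P088.S4.H871
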